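import Vale.Agent.P083.Main

namespace Vale.Agent.Results.P083.A_full

open Vale.Agent.P083

theorem result :
    (∃ (O : Type) (_ : CStarAlgebra O) (_ : Nontrivial O) (s t : O), IsCuntzGenerated O s t) ∧
    ∃ (A : Type) (_ : CStarAlgebra A), Nontrivial A ∧ TopologicalSpace.SeparableSpace A ∧
      ∀ (O : Type) [CStarAlgebra O] [Nontrivial O] (s t : O), IsCuntzGenerated O s t →
        ∀ ω : Ultrafilter ℕ, (ω : Filter ℕ) ≤ Filter.cofinite →
          ¬∃ π : A →⋆ₐ[ℂ] Ultrapower O ω, Function.Injective π := by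
  obtain ⟨A, _, h1, h2, h3⟩ := main
  exact ⟨exists_cuntz, A, inferInstance, h1, h2,
    fun O _ _ s t hst ω _ ⟨π, _⟩ => (h3 O s t hst ω).false π⟩

end Vale.Agent.Results.P083.A_full
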