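import Vale.Agent.P083.Main

namespace Vale.Agent.Results.P083.B_strong

open Vale.Agent.P083

theorem result :
    ∃ (A : Type) (_ : CStarAlgebra A), Nontrivial A ∧ TopologicalSpace.SeparableSpace A ∧
      ∀ (O : Type) [CStarAlgebra O] [Nontrivial O] (s t : O), IsCuntzGenerated O s t →
        ∀ ω : Ultrafilter ℕ, IsEmpty (A →⋆ₐ[ℂ] Ultrapower O ω) :=
  main

end Vale.Agent.Results.P083.B_strong
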